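import Vale.Agent.P181.R2.H959.FPow
import Mathlib.Data.Nat.Choose.Basic
import Mathlib.Data.Fintype.Powerset

set_option autoImplicit false

open scoped TensorProduct

namespace Vale.Agent.P181.FR

open Vale.Agent.P181 Vale.Agent.P181.H280 Vale.Agent.P181.H54 MvPolynomial

namespace H539Fac

universe u

/-- the strictly increasing function `i ↦ f i + i` -/
def stf {k d : ℕ} (f : Fin k → Fin d) (i : Fin k) : Fin (d + k) :=
  ⟨(f i : ℕ) + i, by have h1 := (f i).2; have h2 := i.2; omega⟩

lemma stf_strictMono {k d : ℕ} {f : Fin k → Fin d} (hf : Monotone f) : StrictMono (stf f) := by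
  intro i j hij
  have h1 : (f i : ℕ) ≤ f j := hf hij.le
  have h2 : (i : ℕ) < j := hij
  show (f i : ℕ) + i < (f j : ℕ) + j
  omega

/-- the code of a function -/
def cod {k d : ℕ} (f : Fin k → Fin d) : Finset (Fin (d + k)) := Finset.univ.image (stf f)

lemma cod_card {k d : ℕ} {f : Fin k → Fin d} (hf : Monotone f) : (cod f).card = k := by
  rw [cod, Finset.card_image_of_injective _ (stf_strictMono hf).injective, Finset.card_univ,
    Fintype.card_fin]

lemma cod_inj {k d : ℕ} {f g : Fin k → Fin d} (hf : Monotone f) (hg : Monotone g)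
    (h : cod f = cod g) : f = g := by
  have h1 : Set.range (stf f) = Set.range (stf g) := by
    have h2 := congrArg (fun A : Finset (Fin (d + k)) => (A : Set (Fin (d + k)))) h
    simp only [cod, Finset.coe_image, Finset.coe_univ, Set.image_univ] at h2
    exact h2
  have h3 := ((stf_strictMono hf).range_inj (stf_strictMono hg)).1 h1
  funext i
  have h4 := congrArg Fin.val (congrFun h3 i)
  simp only [stf] at h4
  apply Fin.ext
  omega

lemma finrank_sym_le_choose {M : Type u} [AddCommGroup M] [Module ℂ M] [Module.Finite ℂ M]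
    (k : ℕ) :
    Module.finrank ℂ (Sym[ℂ]^k M) ≤ (Module.finrank ℂ M + k).choose k := by
  classical
  obtain ⟨d, hd⟩ : ∃ d, d = Module.finrank ℂ M := ⟨_, rfl⟩
  let e : Module.Basis (Fin d) ℂ M := (Module.finBasis ℂ M).reindex (finCongr hd.symm)
  rw [← hd]
  let E : (Fin k → Fin d) → Sym[ℂ]^k M := fun f =>
    SymmetricPower.tprod ℂ (fun i => e (f i))
  -- spanning
  have hspan : Submodule.span ℂ (Set.range E) = ⊤ := by
    rw [eq_top_iff, ← SymmetricPower.span_tprod_eq_top, Submodule.span_le]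
    rintro _ ⟨v, rfl⟩
    have h1 : v = fun i => ∑ j, (e.repr (v i) j) • e j := by
      funext i
      exact (e.sum_repr (v i)).symm
    have h2 : SymmetricPower.tprod ℂ v =
        ∑ f : Fin k → Fin d, (∏ i, e.repr (v i) (f i)) • E f := by
      conv_lhs => rw [h1]
      rw [MultilinearMap.map_sum]
      apply Finset.sum_congr rfl
      intro f _
      rw [MultilinearMap.map_smul_univ]
    change SymmetricPower.tprod ℂ v ∈ Submodule.span ℂ (Set.range E)
    rw [h2]
    exact Submodule.sum_mem _ (fun f _ => Submodule.smul_mem _ _ (Submodule.subset_span ⟨f, rfl⟩))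
  -- sorting
  have hsort : ∀ f, E f = E (f ∘ Tuple.sort f) := by
    intro f
    exact (SymmetricPower.tprod_equiv (Tuple.sort f) (fun i => e (f i))).symm
  let g : {A : Finset (Fin (d + k)) // A.card = k} → Sym[ℂ]^k M := fun A =>
    if h : ∃ f : Fin k → Fin d, Monotone f ∧ cod f = A.1 then E h.choose else 0
  have hg : Set.range E ⊆ Set.range g := by
    rintro _ ⟨f, rfl⟩
    have hm : Monotone (f ∘ Tuple.sort f) := Tuple.monotone_sort f
    have hex : ∃ f' : Fin k → Fin d, Monotone f' ∧ cod f' = cod (f ∘ Tuple.sort f) :=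
      ⟨_, hm, rfl⟩
    refine ⟨⟨cod (f ∘ Tuple.sort f), cod_card hm⟩, ?_⟩
    simp only [g]
    rw [dif_pos hex, hsort f]
    congr 1
    exact cod_inj hex.choose_spec.1 hm hex.choose_spec.2
  have h3 : Module.finrank ℂ (Submodule.span ℂ (Set.range g)) ≤ (d + k).choose k := by
    have h4 := finrank_range_le_card (R := ℂ) g
    rw [Fintype.card_finset_len, Fintype.card_fin] at h4
    exact h4
  have h5 : Submodule.span ℂ (Set.range g) = ⊤ := by
    rw [eq_top_iff, ← hspan]
    exact Submodule.span_mono hg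
  rw [h5, finrank_top] at h3
  exact h3

lemma cnt_zero {b n : ℕ} (f : Fin b → Fin (n + 1)) : cntLt f 0 = 0 := by
  apply Fin.ext
  simp [cntLt]

lemma finrank_symV_le' (b n : ℕ) :
    Module.finrank ℂ (Sym[ℂ]^b (Fin (n + 1) → ℂ)) ≤ (b + 1) ^ n := by
  classical
  let E : (Fin b → Fin (n + 1)) → Sym[ℂ]^b (Fin (n + 1) → ℂ) := fun f =>
    SymmetricPower.tprod ℂ (fun i => Pi.single (f i) (1 : ℂ))
  -- spanning
  have hspan : Submodule.span ℂ (Set.range E) = ⊤ := by
    rw [eq_top_iff, ← SymmetricPower.span_tprod_eq_top, Submodule.span_le]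
    rintro _ ⟨v, rfl⟩
    have h1 : v = fun i => ∑ k, (v i k) • (Pi.single k (1 : ℂ) : Fin (n + 1) → ℂ) := by
      funext i
      funext l
      rw [Finset.sum_apply, Finset.sum_eq_single l]
      · simp
      · intro k _ hk
        simp [Pi.single_eq_of_ne hk.symm]
      · intro hh
        exact absurd (Finset.mem_univ _) hh
    have h2 : SymmetricPower.tprod ℂ v =
        ∑ f : Fin b → Fin (n + 1), (∏ i, v i (f i)) • E f := by
      conv_lhs => rw [h1]
      rw [MultilinearMap.map_sum]
      apply Finset.sum_congr rfl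
      intro f _
      rw [MultilinearMap.map_smul_univ]
    change SymmetricPower.tprod ℂ v ∈ Submodule.span ℂ (Set.range E)
    rw [h2]
    exact Submodule.sum_mem _ (fun f _ => Submodule.smul_mem _ _ (Submodule.subset_span ⟨f, rfl⟩))
  -- sorting
  have hsort : ∀ f, E f = E (f ∘ Tuple.sort f) := by
    intro f
    exact (SymmetricPower.tprod_equiv (Tuple.sort f)
      (fun i => (Pi.single (f i) (1 : ℂ) : Fin (n + 1) → ℂ))).symm
  -- the values are indexed by the counts
  let g : (Fin n → Fin (b + 1)) → Sym[ℂ]^b (Fin (n + 1) → ℂ) := fun c =>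
    if h : ∃ f : Fin b → Fin (n + 1), Monotone f ∧ (fun j => cntLt f (Fin.succ j)) = c then
      E h.choose else 0
  have hg : Set.range E ⊆ Set.range g := by
    rintro _ ⟨f, rfl⟩
    have hm : Monotone (f ∘ Tuple.sort f) := Tuple.monotone_sort f
    have hex : ∃ f' : Fin b → Fin (n + 1), Monotone f' ∧ (fun j => cntLt f' (Fin.succ j)) =
        fun j : Fin n => cntLt (f ∘ Tuple.sort f) (Fin.succ j) := ⟨_, hm, rfl⟩
    refine ⟨fun j => cntLt (f ∘ Tuple.sort f) (Fin.succ j), ?_⟩
    simp only [g]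
    rw [dif_pos hex, hsort f]
    congr 1
    apply mono_eq hex.choose_spec.1 hm
    funext j
    rcases Fin.eq_zero_or_eq_succ j with hj | ⟨j', hj⟩
    · rw [hj, cnt_zero, cnt_zero]
    · rw [hj]
      exact congrFun hex.choose_spec.2 j'
  have h3 : Module.finrank ℂ (Submodule.span ℂ (Set.range g)) ≤ (b + 1) ^ n := by
    have h4 := finrank_range_le_card (R := ℂ) g
    rw [Fintype.card_fun, Fintype.card_fin, Fintype.card_fin] at h4
    exact h4
  have h5 : Submodule.span ℂ (Set.range g) = ⊤ := by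
    rw [eq_top_iff, ← hspan]
    exact Submodule.span_mono hg
  rw [h5, finrank_top] at h3
  exact h3

end H539Fac

open H539Fac in
/-- T2 -/
theorem plethMult_le_fac (a b n : ℕ) (lam : Fin (n + 1) → ℕ) :
    a.factorial * plethMult a b (n + 1) lam ≤ ((b + 1) ^ n + a) ^ a := by
  have h0 : plethMult a b (n + 1) lam ≤
      Module.finrank ℂ (⊤ : Submodule ℂ (Pleth a b (n + 1))) :=
    finrank_le_of_inj (LinearMap.id : Pleth a b (n + 1) →ₗ[ℂ] Pleth a b (n + 1)) _ _
      (fun _ _ => trivial) (fun _ _ h => h)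
  have h1 : plethMult a b (n + 1) lam ≤
      Module.finrank ℂ (Sym[ℂ]^a (Sym[ℂ]^b (Fin (n + 1) → ℂ))) := by
    refine h0.trans (le_of_eq ?_)
    exact finrank_top ℂ (Pleth a b (n + 1))
  have h2 := h1.trans (finrank_sym_le_choose a)
  calc a.factorial * plethMult a b (n + 1) lam
      ≤ a.factorial * (Module.finrank ℂ (Sym[ℂ]^b (Fin (n + 1) → ℂ)) + a).choose a :=
        Nat.mul_le_mul_left _ h2
    _ = (Module.finrank ℂ (Sym[ℂ]^b (Fin (n + 1) → ℂ)) + a).descFactorial a :=
        (Nat.descFactorial_eq_factorial_mul_choose _ _).symm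
    _ ≤ (Module.finrank ℂ (Sym[ℂ]^b (Fin (n + 1) → ℂ)) + a) ^ a := Nat.descFactorial_le_pow _ _
    _ ≤ ((b + 1) ^ n + a) ^ a :=
        Nat.pow_le_pow_left (Nat.add_le_add_right (finrank_symV_le' b n) a) a

end Vale.Agent.P181.FR
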