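import Vale.Agent.P181.R2.H959.FDefs
import Mathlib.LinearAlgebra.Multilinear.Basic
import Mathlib.Algebra.MvPolynomial.Basic
import Mathlib.RingTheory.MvPolynomial.Basic
import Mathlib.LinearAlgebra.Basis.Basic

set_option autoImplicit false

open scoped TensorProduct

namespace Vale.Agent.P181.FR

open Vale.Agent.P181 Vale.Agent.P181.H280 Vale.Agent.P181.H54 MvPolynomial

/-! Row R11 of P181.FewRowsInterior: the dimension of `Eb`. -/

section Alg

universe u w

variable {M : Type u} [AddCommGroup M] [Module ℂ M] {A : Type w} [CommRing A] [Algebra ℂ A]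

/-- A linear map into a commutative algebra extends multiplicatively to symmetric powers. -/
noncomputable def symAlg (n : ℕ) (φ : M →ₗ[ℂ] A) : Sym[ℂ]^n M →ₗ[ℂ] A :=
  symLift ((MultilinearMap.mkPiAlgebra ℂ (Fin n) A).compLinearMap (fun _ => φ)) (by
    intro e v
    simp only [MultilinearMap.compLinearMap_apply, MultilinearMap.mkPiAlgebra_apply]
    exact Equiv.prod_comp e (fun i => φ (v i)))

lemma symAlg_tprod (n : ℕ) (φ : M →ₗ[ℂ] A) (v : Fin n → M) :
    symAlg n φ (SymmetricPower.tprod ℂ v) = ∏ i, φ (v i) := by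
  rw [symAlg, symLift_tprod]
  simp only [MultilinearMap.compLinearMap_apply, MultilinearMap.mkPiAlgebra_apply]

end Alg

/-- `v ↦ ∑ v_i X_i` -/
noncomputable def linX (m : ℕ) : (Fin m → ℂ) →ₗ[ℂ] MvPolynomial (Fin m) ℂ :=
  Fintype.linearCombination ℂ (fun i : Fin m => (X i : MvPolynomial (Fin m) ℂ))

lemma linX_single {m : ℕ} (i : Fin m) : linX m (Pi.single i 1) = X i := by
  rw [linX, Fintype.linearCombination_apply_single, one_smul]

/-- A new variable for every monomial. -/
noncomputable def monoX (m : ℕ) :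
    MvPolynomial (Fin m) ℂ →ₗ[ℂ] MvPolynomial (Fin m →₀ ℕ) ℂ :=
  (basisMonomials (Fin m) ℂ).constr ℂ (fun d => (X d : MvPolynomial (Fin m →₀ ℕ) ℂ))

lemma monoX_monomial {m : ℕ} (d : Fin m →₀ ℕ) : monoX m (monomial d 1) = X d := by
  have h := (basisMonomials (Fin m) ℂ).constr_basis ℂ
    (fun d => (X d : MvPolynomial (Fin m →₀ ℕ) ℂ)) d
  rw [coe_basisMonomials] at h
  exact h

/-- The separating map. -/
noncomputable def sepX (b a m : ℕ) : Pleth b a m →ₗ[ℂ] MvPolynomial (Fin m →₀ ℕ) ℂ :=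
  symAlg b (monoX m ∘ₗ symAlg a (linX m))

lemma prod_X_eq {σ : Type*} {ι : Type*} [Fintype ι] (f : ι → σ) :
    ∏ i, (X (f i) : MvPolynomial σ ℂ) = monomial (∑ i, Finsupp.single (f i) 1) 1 := by
  rw [monomial_sum_one]
  rfl

lemma sepX_tprod {b a m : ℕ} (c : Fin b → Fin a → Fin m) :
    sepX b a m (SymmetricPower.tprod ℂ (fun j => SymmetricPower.tprod ℂ
      (fun l => (Pi.single (c j l) 1 : Fin m → ℂ)))) =
      monomial (∑ j, Finsupp.single (∑ l, Finsupp.single (c j l) 1) 1) 1 := by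
  have h : ∀ j : Fin b, (monoX m ∘ₗ symAlg a (linX m)) (SymmetricPower.tprod ℂ
      (fun l => (Pi.single (c j l) 1 : Fin m → ℂ))) = X (∑ l, Finsupp.single (c j l) 1) := by
    intro j
    rw [LinearMap.comp_apply, symAlg_tprod]
    simp only [linX_single]
    rw [prod_X_eq, monoX_monomial]
  have h2 : sepX b a m (SymmetricPower.tprod ℂ (fun j => SymmetricPower.tprod ℂ
      (fun l => (Pi.single (c j l) 1 : Fin m → ℂ)))) =
      ∏ j, (monoX m ∘ₗ symAlg a (linX m)) (SymmetricPower.tprod ℂ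
      (fun l => (Pi.single (c j l) 1 : Fin m → ℂ))) := symAlg_tprod _ _ _
  rw [h2, Finset.prod_congr rfl (fun j _ => h j), prod_X_eq]

lemma finite_sub {M : Type} [AddCommMonoid M] [Module ℂ M] [Module.Finite ℂ M]
    (S : Submodule ℂ M) : Module.Finite ℂ S := by
  let _ := Module.addCommMonoidToAddCommGroup ℂ (M := M)
  infer_instance

lemma fin_two_ne_one {n : ℕ} : (2 : Fin (n + 3)) ≠ 1 := by
  intro h
  have h2 : ((2 : Fin (n + 3)) : ℕ) = 2 := Nat.mod_eq_of_lt (show 2 < n + 3 by omega)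
  have h1 : ((1 : Fin (n + 3)) : ℕ) = 1 := Nat.mod_eq_of_lt (show 1 < n + 3 by omega)
  have := congrArg Fin.val h
  omega

lemma fin_zero_ne_one {n : ℕ} : (0 : Fin (n + 3)) ≠ 1 := by
  intro h
  have h1 : ((1 : Fin (n + 3)) : ℕ) = 1 := Nat.mod_eq_of_lt (show 1 < n + 3 by omega)
  have h0 : ((0 : Fin (n + 3)) : ℕ) = 0 := rfl
  have := congrArg Fin.val h
  omega

lemma fin_zero_ne_two {n : ℕ} : (0 : Fin (n + 3)) ≠ 2 := by
  intro h
  have h1 : ((2 : Fin (n + 3)) : ℕ) = 2 := Nat.mod_eq_of_lt (show 2 < n + 3 by omega)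
  have h0 : ((0 : Fin (n + 3)) : ℕ) = 0 := rfl
  have := congrArg Fin.val h
  omega

/-- The position of the `l`-th factor in `e_1^u e_2^v e_0^(a-u-v)`. -/
def idx (n u v l : ℕ) : Fin (n + 3) := if l < u then 1 else if l < u + v then 2 else 0

lemma idx_zero {n u v l : ℕ} (h : u + v ≤ l) : idx n u v l = 0 := by
  rw [idx, if_neg (by omega), if_neg (by omega)]

lemma card_lt {a u : ℕ} (h : u ≤ a) :
    (Finset.univ.filter (fun l : Fin a => (l : ℕ) < u)).card = u := by
  rw [Finset.card_filter, Fin.sum_univ_eq_sum_range (fun l => if l < u then 1 else 0) a,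
    ← Finset.card_filter]
  have h1 : (Finset.range a).filter (fun l => l < u) = Finset.range u := by
    ext x
    simp only [Finset.mem_filter, Finset.mem_range]
    omega
  rw [h1, Finset.card_range]

lemma deg_one {n a u v : ℕ} (h : u + v ≤ a) :
    (∑ l : Fin a, Finsupp.single (idx n u v l) 1 : Fin (n + 3) →₀ ℕ) 1 = u := by
  rw [Finsupp.finsetSum_apply]
  have h1 : ∀ l : Fin a, (Finsupp.single (idx n u v l) 1 : Fin (n + 3) →₀ ℕ) 1 =
      if (l : ℕ) < u then 1 else 0 := by
    intro l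
    rw [Finsupp.single_apply, idx]
    by_cases h1 : (l : ℕ) < u
    · simp [h1]
    · by_cases h2 : (l : ℕ) < u + v
      · rw [if_neg h1, if_pos h2, if_neg fin_two_ne_one, if_neg h1]
      · rw [if_neg h1, if_neg h2, if_neg fin_zero_ne_one, if_neg h1]
  rw [Finset.sum_congr rfl (fun l _ => h1 l), ← Finset.card_filter, card_lt (by omega)]

lemma deg_two {n a u v : ℕ} (h : u + v ≤ a) :
    (∑ l : Fin a, Finsupp.single (idx n u v l) 1 : Fin (n + 3) →₀ ℕ) 2 = v := by
  rw [Finsupp.finsetSum_apply]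
  have h1 : ∀ l : Fin a, (Finsupp.single (idx n u v l) 1 : Fin (n + 3) →₀ ℕ) 2 =
      (if (l : ℕ) < u + v then 1 else 0) - (if (l : ℕ) < u then 1 else 0) := by
    intro l
    rw [Finsupp.single_apply, idx]
    by_cases h1 : (l : ℕ) < u
    · have h2 : (l : ℕ) < u + v := by omega
      rw [if_pos h1, if_neg fin_two_ne_one.symm, if_pos h1, if_pos h2]
      rfl
    · by_cases h2 : (l : ℕ) < u + v
      · rw [if_neg h1, if_pos h2, if_pos rfl, if_neg h1, if_pos h2]
      · rw [if_neg h1, if_neg h2, if_neg fin_zero_ne_two, if_neg h1, if_neg h2]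
        rfl
  have h2 : ∑ l : Fin a, (Finsupp.single (idx n u v l) 1 : Fin (n + 3) →₀ ℕ) 2 +
      ∑ l : Fin a, (if (l : ℕ) < u then 1 else 0) =
      ∑ l : Fin a, (if (l : ℕ) < u + v then 1 else 0) := by
    rw [← Finset.sum_add_distrib]
    apply Finset.sum_congr rfl
    intro l _
    rw [h1 l]
    by_cases h1 : (l : ℕ) < u
    · have h2 : (l : ℕ) < u + v := by omega
      simp [h1, h2]
    · simp [h1]
  rw [← Finset.card_filter, ← Finset.card_filter, card_lt (by omega), card_lt h] at h2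
  omega

/-- the exponents -/
def uu (h j : ℕ) : ℕ := j % h
def vv (h s j k : ℕ) : ℕ := j / h * s + k

lemma uv_le {r h s j k : ℕ} (hj : j < r * h) (hk : k < s) : uu h j + vv h s j k < h + r * s := by
  have hh : 0 < h := by
    rcases Nat.eq_zero_or_pos h with rfl | h0
    · simp at hj
    · exact h0
  have h1 : uu h j < h := Nat.mod_lt _ hh
  have h2 : j / h < r := (Nat.div_lt_iff_lt_mul hh).2 hj
  have h3 : (j / h + 1) * s ≤ r * s := Nat.mul_le_mul_right s h2
  rw [vv]
  rw [add_mul, one_mul] at h3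
  omega

lemma vv_inj {h s j j' k k' : ℕ} (hk : k < s) (hk' : k' < s) (hu : uu h j = uu h j')
    (hv : vv h s j k = vv h s j' k') : j = j' ∧ k = k' := by
  have hs : 0 < s := by omega
  have h1 : j / h = j' / h := by
    have e1 : (j / h * s + k) / s = j / h := by
      rw [Nat.mul_comm, Nat.mul_add_div hs, Nat.div_eq_of_lt hk, Nat.add_zero]
    have e2 : (j' / h * s + k') / s = j' / h := by
      rw [Nat.mul_comm, Nat.mul_add_div hs, Nat.div_eq_of_lt hk', Nat.add_zero]
    rw [← e1, ← e2]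
    exact congrArg (· / s) hv
  have h2 : k = k' := by
    rw [vv, vv, h1] at hv
    omega
  refine ⟨?_, h2⟩
  rw [← Nat.div_add_mod j h, ← Nat.div_add_mod j' h, h1]
  rw [uu, uu] at hu
  rw [hu]

theorem Eb_dim {a n r h s : ℕ} (hc : h + r * s ≤ a) :
    s ^ (r * h) ≤ Module.finrank ℂ (Eb (r * h) a (n + 2) ((r * h) * (a - (h + r * s)))) := by
  classical
  let c : (Fin (r * h) → Fin s) → Fin (r * h) → Fin a → Fin (n + 3) :=
    fun f j l => idx n (uu h j) (vv h s j (f j)) l
  let x : (Fin (r * h) → Fin s) → Pleth (r * h) a (n + 3) :=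
    fun f => SymmetricPower.tprod ℂ (fun j => SymmetricPower.tprod ℂ
      (fun l => (Pi.single (c f j l) 1 : Fin (n + 3) → ℂ)))
  have hx : ∀ f, x f ∈ Eb (r * h) a (n + 2) ((r * h) * (a - (h + r * s))) := by
    intro f
    apply Submodule.subset_span
    refine ⟨fun j l => Pi.single (c f j l) 1,
      Finset.univ ×ˢ (Finset.univ.filter (fun l : Fin a => ¬ (l : ℕ) < h + r * s)), ?_, ?_, rfl⟩
    · rw [Finset.card_product, Finset.card_univ, Fintype.card_fin]
      apply Nat.mul_le_mul_left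
      have h1 := Finset.card_filter_add_card_filter_not (s := (Finset.univ : Finset (Fin a)))
        (fun l : Fin a => (l : ℕ) < h + r * s)
      rw [card_lt hc, Finset.card_univ, Fintype.card_fin] at h1
      omega
    · rintro ⟨j, l⟩ hp
      refine ⟨1, ?_⟩
      rw [one_smul]
      simp only [Finset.mem_product, Finset.mem_univ, Finset.mem_filter, true_and] at hp
      have h1 : c f j l = 0 := idx_zero (by
        have := uv_le (r := r) (h := h) (s := s) j.2 (f j).2
        omega)
      simp only [h1]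
  let E : (Fin (r * h) → Fin s) → ((Fin (n + 3) →₀ ℕ) →₀ ℕ) :=
    fun f => ∑ j, Finsupp.single (∑ l, Finsupp.single (c f j l) 1) 1
  have hE : Function.Injective E := by
    intro f g hfg
    funext j
    have h1 : E g (∑ l, Finsupp.single (c f j l) 1) ≠ 0 := by
      rw [← hfg]
      have h2 : (1 : ℕ) ≤ E f (∑ l, Finsupp.single (c f j l) 1) := by
        simp only [E]
        rw [Finsupp.finsetSum_apply]
        refine le_trans ?_ (Finset.single_le_sum (f := fun i =>
          (Finsupp.single (∑ l, Finsupp.single (c f i l) 1) 1 : (Fin (n + 3) →₀ ℕ) →₀ ℕ)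
            (∑ l, Finsupp.single (c f j l) 1)) (fun i _ => Nat.zero_le _) (Finset.mem_univ j))
        simp only [Finsupp.single_eq_same, le_refl]
      omega
    simp only [E] at h1
    rw [Finsupp.finsetSum_apply] at h1
    obtain ⟨j', _, hj'⟩ := Finset.exists_ne_zero_of_sum_ne_zero h1
    have h3 : (∑ l, Finsupp.single (c g j' l) 1 : Fin (n + 3) →₀ ℕ) =
        ∑ l, Finsupp.single (c f j l) 1 := by
      by_contra hne
      exact hj' (Finsupp.single_eq_of_ne (fun h => hne h.symm))
    have b1 : uu h j + vv h s j (f j) ≤ a :=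
      (uv_le (r := r) (h := h) (s := s) j.2 (f j).2).le.trans hc
    have b2 : uu h j' + vv h s j' (g j') ≤ a :=
      (uv_le (r := r) (h := h) (s := s) j'.2 (g j').2).le.trans hc
    have e1 := congrArg (fun d : Fin (n + 3) →₀ ℕ => d 1) h3
    have e2 := congrArg (fun d : Fin (n + 3) →₀ ℕ => d 2) h3
    simp only [c] at e1 e2
    rw [deg_one b2, deg_one b1] at e1
    rw [deg_two b2, deg_two b1] at e2
    obtain ⟨k1, k2⟩ := vv_inj (g j').2 (f j).2 e1 e2
    have k3 : j' = j := Fin.ext k1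
    subst k3
    exact Fin.ext k2.symm
  have hli : LinearIndependent ℂ (fun f => (⟨x f, hx f⟩ :
      Eb (r * h) a (n + 2) ((r * h) * (a - (h + r * s))))) := by
    apply LinearIndependent.of_comp (sepX (r * h) a (n + 3) ∘ₗ Submodule.subtype _)
    have h1 : (⇑(sepX (r * h) a (n + 3) ∘ₗ Submodule.subtype _) ∘ fun f => (⟨x f, hx f⟩ :
        Eb (r * h) a (n + 2) ((r * h) * (a - (h + r * s))))) =
        (basisMonomials (Fin (n + 3) →₀ ℕ) ℂ) ∘ E := by
      funext f
      rw [coe_basisMonomials]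
      exact sepX_tprod (c f)
    rw [h1]
    exact (basisMonomials (Fin (n + 3) →₀ ℕ) ℂ).linearIndependent.comp E hE
  have := finite_sub (Eb (r * h) a (n + 2) ((r * h) * (a - (h + r * s))))
  have h2 := hli.fintype_card_le_finrank
  rwa [Fintype.card_fun, Fintype.card_fin, Fintype.card_fin] at h2

end Vale.Agent.P181.FR
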