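import Vale.Agent.P181.R2.H539.Eb

set_option autoImplicit false

open scoped TensorProduct

namespace Vale.Agent.P181.FR

open Vale.Agent.P181 Vale.Agent.P181.H280 Vale.Agent.P181.H54 MvPolynomial

namespace H539Dim

/-- Monomials with distinct contents give independent products. -/
theorem dim_gen {b c m s : ℕ} (w : Fin b → Fin s → Fin c → Fin m)
    (hw : ∀ j k j' k', (∑ l, Finsupp.single (w j k l) 1 : Fin m →₀ ℕ) =
      ∑ l, Finsupp.single (w j' k' l) 1 → j = j' ∧ k = k') :
    s ^ b ≤ Module.finrank ℂ (Pleth b c m) := by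
  classical
  let x : (Fin b → Fin s) → Pleth b c m :=
    fun f => SymmetricPower.tprod ℂ (fun j => SymmetricPower.tprod ℂ
      (fun l => (Pi.single (w j (f j) l) 1 : Fin m → ℂ)))
  let E : (Fin b → Fin s) → ((Fin m →₀ ℕ) →₀ ℕ) :=
    fun f => ∑ j, Finsupp.single (∑ l, Finsupp.single (w j (f j) l) 1) 1
  have hE : Function.Injective E := by
    intro f g hfg
    funext j
    have h1 : E g (∑ l, Finsupp.single (w j (f j) l) 1) ≠ 0 := by
      rw [← hfg]
      have h2 : (1 : ℕ) ≤ E f (∑ l, Finsupp.single (w j (f j) l) 1) := by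
        simp only [E]
        rw [Finsupp.finsetSum_apply]
        refine le_trans ?_ (Finset.single_le_sum (f := fun i =>
          (Finsupp.single (∑ l, Finsupp.single (w i (f i) l) 1) 1 : (Fin m →₀ ℕ) →₀ ℕ)
            (∑ l, Finsupp.single (w j (f j) l) 1)) (fun i _ => Nat.zero_le _) (Finset.mem_univ j))
        simp only [Finsupp.single_eq_same, le_refl]
      omega
    simp only [E] at h1
    rw [Finsupp.finsetSum_apply] at h1
    obtain ⟨j', _, hj'⟩ := Finset.exists_ne_zero_of_sum_ne_zero h1
    have h3 : (∑ l, Finsupp.single (w j' (g j') l) 1 : Fin m →₀ ℕ) =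
        ∑ l, Finsupp.single (w j (f j) l) 1 := by
      by_contra hne
      exact hj' (Finsupp.single_eq_of_ne (fun h => hne h.symm))
    obtain ⟨k3, k4⟩ := hw _ _ _ _ h3
    subst k3
    exact k4.symm
  have hli : LinearIndependent ℂ x := by
    apply LinearIndependent.of_comp (sepX b c m)
    have h1 : (⇑(sepX b c m) ∘ x) = (basisMonomials (Fin m →₀ ℕ) ℂ) ∘ E := by
      funext f
      rw [coe_basisMonomials]
      exact sepX_tprod (fun j => w j (f j))
    rw [h1]
    exact (basisMonomials (Fin m →₀ ℕ) ℂ).linearIndependent.comp E hE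
  have h2 := hli.fintype_card_le_finrank
  rwa [Fintype.card_fun, Fintype.card_fin, Fintype.card_fin] at h2

/-- A word with prescribed content. -/
theorem exists_word {c m : ℕ} (u : Fin m → ℕ) (hu : ∑ i, u i = c) :
    ∃ f : Fin c → Fin m, ∀ i, (∑ l, Finsupp.single (f l) 1 : Fin m →₀ ℕ) i = u i := by
  classical
  subst hu
  refine ⟨fun l => (finSigmaFinEquiv.symm l).1, fun i => ?_⟩
  rw [Finsupp.finsetSum_apply, ← finSigmaFinEquiv.sum_comp]
  simp only [Equiv.symm_apply_apply]
  rw [Fintype.sum_sigma]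
  simp [Finsupp.single_apply]

end H539Dim

open H539Dim in
/-- T1 -/
theorem dim_ge {b c n h s : ℕ} (hc : (n + 2) * h ≤ c) (hs : s * b ≤ h ^ (n + 2)) :
    s ^ b ≤ Module.finrank ℂ (Pleth b c (n + 3)) := by
  classical
  -- contents
  let dig : Fin (h ^ (n + 2)) → Fin (n + 2) → Fin h := fun N => finFunctionFinEquiv.symm N
  have hsum : ∀ N, ∑ i, (dig N i : ℕ) ≤ c := by
    intro N
    refine le_trans ?_ hc
    calc ∑ i, (dig N i : ℕ) ≤ ∑ _i : Fin (n + 2), h := Finset.sum_le_sum (fun i _ => (dig N i).2.le)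
      _ = (n + 2) * h := by simp
  have hU : ∀ N, ∃ f : Fin c → Fin (n + 3), ∀ i : Fin (n + 2),
      (∑ l, Finsupp.single (f l) 1 : Fin (n + 3) →₀ ℕ) i.succ = dig N i := by
    intro N
    obtain ⟨f, hf⟩ := exists_word (c := c) (m := n + 3)
      (Fin.cons (c - ∑ i, (dig N i : ℕ)) (fun i => (dig N i : ℕ))) (by
        rw [Fin.sum_univ_succ]
        simp only [Fin.cons_zero, Fin.cons_succ]
        have := hsum N
        omega)
    refine ⟨f, fun i => ?_⟩
    rw [hf]
    simp
  choose F hF using hU
  let code : Fin b → Fin s → Fin (h ^ (n + 2)) := fun j k => Fin.castLE hs (finProdFinEquiv (k, j))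
  have hcode : ∀ j k j' k', code j k = code j' k' → j = j' ∧ k = k' := by
    intro j k j' k' he
    have h1 := Fin.castLE_injective hs he
    have h2 := finProdFinEquiv.injective h1
    simp only [Prod.mk.injEq] at h2
    exact ⟨h2.2, h2.1⟩
  apply dim_gen (fun j k => F (code j k))
  intro j k j' k' he
  apply hcode
  apply finFunctionFinEquiv.symm.injective
  funext i
  apply Fin.ext
  have h1 := hF (code j k) i
  have h2 := hF (code j' k') i
  rw [he, h2] at h1
  exact h1.symm

end Vale.Agent.P181.FR
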