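import Vale.Agent.P181.R2.H959.FParts

set_option autoImplicit false

/-!
# Almost all partitions with at most `n + 3` rows have large gaps

`count_bad`: the number of partitions of `a * b` with at most `n + 3` rows which have a gap smaller
than `C * a ^ 2` is at most `K * (a / b)` times the number of all of them.
-/

namespace Vale.Agent.P181.FR

namespace H539Count

theorem lower (n s : ℕ) : (s / (n + 3) ^ 2 + 1) ^ (n + 2) ≤ (Parts (n + 3) s).card := by
  classical
  obtain ⟨q, hq⟩ : ∃ q, q = s / (n + 3) ^ 2 := ⟨_, rfl⟩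
  rw [← hq]
  have hqs : (n + 3) ^ 2 * q ≤ s := by rw [hq]; exact Nat.mul_div_le s _
  obtain ⟨tl, htl⟩ : ∃ tl : (Fin (n + 2) → Fin (q + 1)) → Fin (n + 2) → ℕ,
      ∀ g i, tl g i = (n + 1 - i) * q + g i := ⟨fun g i => (n + 1 - i) * q + g i, fun _ _ => rfl⟩
  have hdec : ∀ g, ∀ i j : Fin (n + 2), i ≤ j → tl g j ≤ tl g i := by
    intro g i j hij
    rcases eq_or_lt_of_le hij with h | h
    · rw [h]
    · rw [htl, htl]
      have h1 : (g j : ℕ) ≤ q := Nat.lt_succ_iff.mp (g j).2
      have h2 : (n + 1 - (j : ℕ)) + 1 ≤ n + 1 - (i : ℕ) := by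
        have := j.2
        have h3 : (i : ℕ) < j := h
        omega
      have h3 : ((n + 1 - (j : ℕ)) + 1) * q ≤ (n + 1 - (i : ℕ)) * q := Nat.mul_le_mul_right _ h2
      have h4 : ((n + 1 - (j : ℕ)) + 1) * q = (n + 1 - (j : ℕ)) * q + q := by ring
      omega
  have hle : ∀ g i, tl g i ≤ (n + 2) * q := by
    intro g i
    rw [htl]
    have h1 : (g i : ℕ) ≤ q := Nat.lt_succ_iff.mp (g i).2
    have h3 : (n + 1 - (i : ℕ)) * q ≤ (n + 1) * q := Nat.mul_le_mul_right _ (Nat.sub_le _ _)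
    have h4 : (n + 2) * q = (n + 1) * q + q := by ring
    omega
  have hsum : ∀ g, ∑ i, tl g i ≤ (n + 2) * ((n + 2) * q) := by
    intro g
    calc ∑ i, tl g i ≤ ∑ _i : Fin (n + 2), (n + 2) * q := Finset.sum_le_sum (fun i _ => hle g i)
      _ = (n + 2) * ((n + 2) * q) := by simp
  have htot : ∀ g i, ∑ j, tl g j + tl g i ≤ s := by
    intro g i
    have h1 := hsum g
    have h2 := hle g i
    have h3 : (n + 2) * ((n + 2) * q) + (n + 2) * q ≤ (n + 3) ^ 2 * q := by nlinarith
    omega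
  obtain ⟨f, hf⟩ : ∃ f : (Fin (n + 2) → Fin (q + 1)) → (Fin (n + 3) → Fin (s + 1)),
      (∀ g, (f g 0 : ℕ) = s - ∑ j, tl g j) ∧ ∀ g i, (f g (Fin.succ i) : ℕ) = tl g i := by
    refine ⟨fun g => Fin.cons ⟨s - ∑ j, tl g j, by omega⟩ (fun i => ⟨tl g i, ?_⟩), ?_, ?_⟩
    · have := htot g i
      omega
    · intro g
      simp
    · intro g i
      simp
  obtain ⟨hf0, hf1⟩ := hf
  have hcard : Fintype.card (Fin (n + 2) → Fin (q + 1)) = (q + 1) ^ (n + 2) := by simp
  rw [← hcard, ← Finset.card_univ]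
  apply Finset.card_le_card_of_injOn f
  · intro g _
    rw [Finset.mem_coe, Parts, Finset.mem_filter]
    refine ⟨Finset.mem_univ _, ?_, ?_⟩
    · intro i j hij
      rw [Fin.le_def]
      rcases Fin.eq_zero_or_eq_succ i with hi | ⟨i', hi⟩
      · rcases Fin.eq_zero_or_eq_succ j with hj | ⟨j', hj⟩
        · rw [hi, hj]
        · rw [hi, hj, hf0, hf1]
          have := htot g j'
          omega
      · rcases Fin.eq_zero_or_eq_succ j with hj | ⟨j', hj⟩
        · exfalso
          rw [hi, hj] at hij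
          exact absurd hij (by simp)
        · rw [hi, hj, hf1, hf1]
          apply hdec
          rw [hi, hj] at hij
          exact Fin.succ_le_succ_iff.mp hij
    · rw [Fin.sum_univ_succ, hf0]
      have h1 : ∑ i : Fin (n + 2), (f g (Fin.succ i) : ℕ) = ∑ j, tl g j :=
        Finset.sum_congr rfl (fun i _ => hf1 g i)
      rw [h1]
      have := htot g 0
      omega
  · intro g _ g' _ h
    funext i
    have h1 : (f g (Fin.succ i) : ℕ) = (f g' (Fin.succ i) : ℕ) := by rw [h]
    rw [hf1, hf1, htl, htl] at h1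
    apply Fin.ext
    omega

theorem upper (n s D : ℕ) (p q : Fin (n + 3)) (hpq : p ≠ q)
    (S : Finset (Fin (n + 3) → Fin (s + 1))) (t : (Fin (n + 3) → Fin (s + 1)) → ℕ)
    (ht : ∀ lam ∈ S, t lam < D)
    (hinj : ∀ lam ∈ S, ∀ mu ∈ S, (∀ j, j ≠ p → j ≠ q → lam j = mu j) → t lam = t mu →
      lam p = mu p ∧ lam q = mu q) :
    S.card ≤ (s + 1) ^ (n + 1) * D := by
  classical
  obtain ⟨T, hT⟩ : ∃ T : Finset (Fin (n + 3)), T = (Finset.univ.erase p).erase q := ⟨_, rfl⟩
  have hTc : T.card = n + 1 := by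
    rw [hT, Finset.card_erase_of_mem, Finset.card_erase_of_mem (Finset.mem_univ _)]
    · simp
    · simp [hpq.symm]
  have hmem : ∀ j, j ≠ p → j ≠ q → j ∈ T := by
    intro j h1 h2
    rw [hT]
    simp [h1, h2]
  have hc : ((Finset.univ : Finset (T → Fin (s + 1))) ×ˢ Finset.range D).card =
      (s + 1) ^ (n + 1) * D := by
    rw [Finset.card_product, Finset.card_univ, Finset.card_range]
    simp [hTc]
  rw [← hc]
  apply Finset.card_le_card_of_injOn (fun lam => ((fun j : T => lam j), t lam))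
  · intro lam hlam
    rw [Finset.mem_coe, Finset.mem_product]
    exact ⟨Finset.mem_univ _, Finset.mem_range.mpr (ht lam hlam)⟩
  · intro lam hlam mu hmu h
    simp only [Prod.mk.injEq] at h
    obtain ⟨h1, h2⟩ := h
    have h3 : ∀ j, j ≠ p → j ≠ q → lam j = mu j := by
      intro j hj1 hj2
      exact congrFun h1 ⟨j, hmem j hj1 hj2⟩
    obtain ⟨h4, h5⟩ := hinj lam hlam mu hmu h3 h2
    funext j
    by_cases hj1 : j = p
    · rw [hj1]; exact h4
    · by_cases hj2 : j = q
      · rw [hj2]; exact h5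
      · exact h3 j hj1 hj2

/-- equal sums and equal values off `p, q` give equal sums of the two values. -/
theorem two_sum (n s : ℕ) (p q : Fin (n + 3)) (hpq : p ≠ q)
    (lam mu : Fin (n + 3) → Fin (s + 1))
    (hs : ∑ i, (lam i : ℕ) = ∑ i, (mu i : ℕ)) (h : ∀ j, j ≠ p → j ≠ q → lam j = mu j) :
    (lam p : ℕ) + lam q = mu p + mu q := by
  classical
  rw [← Finset.add_sum_erase _ _ (Finset.mem_univ p),
    ← Finset.add_sum_erase _ (fun i => (mu i : ℕ)) (Finset.mem_univ p)] at hs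
  have hq : q ∈ Finset.univ.erase p := by simp [hpq.symm]
  rw [← Finset.add_sum_erase _ _ hq, ← Finset.add_sum_erase _ (fun i => (mu i : ℕ)) hq] at hs
  have h1 : ∑ i ∈ (Finset.univ.erase p).erase q, (lam i : ℕ) =
      ∑ i ∈ (Finset.univ.erase p).erase q, (mu i : ℕ) := by
    apply Finset.sum_congr rfl
    intro j hj
    simp only [Finset.mem_erase, Finset.mem_univ, and_true] at hj
    rw [h j hj.2 hj.1]
  rw [h1] at hs
  omega

end H539Count

open H539Count in
theorem count_bad (n C : ℕ) : ∃ K : ℕ, ∀ (a b : ℕ), 1 ≤ a → ∀ P : (Fin (n + 3) → ℕ) → Prop,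
    (∀ lam : Fin (n + 3) → ℕ, ∑ i, lam i = a * b →
      (∀ i : Fin (n + 2), lam i.succ + C * a ^ 2 ≤ lam i.castSucc) →
      C * a ^ 2 ≤ lam (Fin.last _) → P lam) →
    b * {lam ∈ (Parts (n + 3) (a * b) : Set (Fin (n + 3) → Fin (a * b + 1))) |
      ¬ P (fun i => lam i)}.ncard ≤ K * a * (Parts (n + 3) (a * b)).card := by
  classical
  refine ⟨(n + 3) * C * ((n + 3) ^ 2) ^ (n + 2), ?_⟩
  intro a b ha P hP
  obtain ⟨s, hs⟩ : ∃ s, s = a * b := ⟨_, rfl⟩
  rw [← hs]
  rw [← hs] at hP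
  obtain ⟨D, hD⟩ : ∃ D, D = C * a ^ 2 := ⟨_, rfl⟩
  rw [← hD] at hP
  -- the bad sets
  obtain ⟨B, hB⟩ : ∃ B : Fin (n + 2) → Finset (Fin (n + 3) → Fin (s + 1)),
      ∀ i, B i = (Parts (n + 3) s).filter
        (fun lam => (lam i.castSucc : ℕ) < lam i.succ + D) := ⟨_, fun _ => rfl⟩
  obtain ⟨B0, hB0⟩ : ∃ B0 : Finset (Fin (n + 3) → Fin (s + 1)),
      B0 = (Parts (n + 3) s).filter (fun lam => (lam (Fin.last _) : ℕ) < D) := ⟨_, rfl⟩
  have hcB : ∀ i, (B i).card ≤ (s + 1) ^ (n + 1) * D := by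
    intro i
    have hne : i.castSucc ≠ i.succ := ne_of_lt (Fin.castSucc_lt_succ)
    apply upper n s D i.castSucc i.succ hne (B i)
      (fun lam => (lam i.castSucc : ℕ) - lam i.succ)
    · intro lam hlam
      rw [hB, Finset.mem_filter, Parts, Finset.mem_filter] at hlam
      have h1 := hlam.1.2.1 i.castSucc i.succ (le_of_lt Fin.castSucc_lt_succ)
      rw [Fin.le_def] at h1
      have h2 := hlam.2
      show (lam i.castSucc : ℕ) - lam i.succ < D
      omega
    · intro lam hlam mu hmu h ht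
      rw [hB, Finset.mem_filter, Parts, Finset.mem_filter] at hlam hmu
      have h1 := hlam.1.2.1 i.castSucc i.succ (le_of_lt Fin.castSucc_lt_succ)
      have h2 := hmu.1.2.1 i.castSucc i.succ (le_of_lt Fin.castSucc_lt_succ)
      rw [Fin.le_def] at h1 h2
      have h3 := two_sum n s i.castSucc i.succ hne lam mu
        (hlam.1.2.2.trans hmu.1.2.2.symm) h
      constructor
      · apply Fin.ext
        omega
      · apply Fin.ext
        omega
  have hcB0 : B0.card ≤ (s + 1) ^ (n + 1) * D := by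
    have hne : (Fin.last (n + 2)) ≠ 0 := by simp
    apply upper n s D (Fin.last (n + 2)) 0 hne B0 (fun lam => (lam (Fin.last (n + 2)) : ℕ))
    · intro lam hlam
      rw [hB0, Finset.mem_filter] at hlam
      exact hlam.2
    · intro lam hlam mu hmu h ht
      rw [hB0, Finset.mem_filter, Parts, Finset.mem_filter] at hlam hmu
      have h3 := two_sum n s (Fin.last (n + 2)) 0 hne lam mu
        (hlam.1.2.2.trans hmu.1.2.2.symm) h
      constructor
      · apply Fin.ext
        omega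
      · apply Fin.ext
        omega
  have hsub : {lam ∈ (Parts (n + 3) s : Set (Fin (n + 3) → Fin (s + 1))) |
      ¬ P (fun i => lam i)} ⊆ ((Finset.univ.biUnion B ∪ B0 : Finset _) : Set _) := by
    intro lam hlam
    obtain ⟨hlam1, hlam2⟩ := hlam
    by_contra hcon
    apply hlam2
    rw [Finset.mem_coe, Finset.mem_union, not_or] at hcon
    have hm : lam ∈ Parts (n + 3) s := hlam1
    have hsm : ∑ i, (lam i : ℕ) = s := by
      rw [Parts, Finset.mem_filter] at hm
      exact hm.2.2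
    apply hP (fun i => (lam i : ℕ)) hsm
    · intro i
      by_contra h
      apply hcon.1
      rw [Finset.mem_biUnion]
      refine ⟨i, Finset.mem_univ _, ?_⟩
      rw [hB, Finset.mem_filter]
      refine ⟨hm, ?_⟩
      omega
    · by_contra h
      apply hcon.2
      rw [hB0, Finset.mem_filter]
      refine ⟨hm, ?_⟩
      omega
  have hn1 : {lam ∈ (Parts (n + 3) s : Set (Fin (n + 3) → Fin (s + 1))) |
      ¬ P (fun i => lam i)}.ncard ≤ (n + 3) * ((s + 1) ^ (n + 1) * D) := by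
    refine le_trans (Set.ncard_le_ncard hsub (Finset.finite_toSet _)) ?_
    rw [Set.ncard_coe_finset]
    refine le_trans (Finset.card_union_le _ _) ?_
    have h1 : (Finset.univ.biUnion B).card ≤ (n + 2) * ((s + 1) ^ (n + 1) * D) := by
      refine le_trans Finset.card_biUnion_le ?_
      calc ∑ i, (B i).card ≤ ∑ _i : Fin (n + 2), (s + 1) ^ (n + 1) * D :=
            Finset.sum_le_sum (fun i _ => hcB i)
        _ = (n + 2) * ((s + 1) ^ (n + 1) * D) := by simp
    calc (Finset.univ.biUnion B).card + B0.card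
        ≤ (n + 2) * ((s + 1) ^ (n + 1) * D) + (s + 1) ^ (n + 1) * D := Nat.add_le_add h1 hcB0
      _ = (n + 3) * ((s + 1) ^ (n + 1) * D) := by ring
  have hlow := lower n s
  have hdiv : s + 1 ≤ (n + 3) ^ 2 * (s / (n + 3) ^ 2 + 1) := by
    have := Nat.lt_mul_div_succ s (show 0 < (n + 3) ^ 2 by positivity)
    exact this
  calc b * {lam ∈ (Parts (n + 3) s : Set (Fin (n + 3) → Fin (s + 1))) |
      ¬ P (fun i => lam i)}.ncard
      ≤ b * ((n + 3) * ((s + 1) ^ (n + 1) * D)) := Nat.mul_le_mul_left _ hn1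
    _ = (n + 3) * C * a * (s * (s + 1) ^ (n + 1)) := by rw [hD, hs]; ring
    _ ≤ (n + 3) * C * a * ((s + 1) * (s + 1) ^ (n + 1)) := by gcongr; omega
    _ = (n + 3) * C * a * (s + 1) ^ (n + 2) := by ring
    _ ≤ (n + 3) * C * a * ((n + 3) ^ 2 * (s / (n + 3) ^ 2 + 1)) ^ (n + 2) := by gcongr
    _ = (n + 3) * C * ((n + 3) ^ 2) ^ (n + 2) * a * (s / (n + 3) ^ 2 + 1) ^ (n + 2) := by
        rw [mul_pow]; ring
    _ ≤ (n + 3) * C * ((n + 3) ^ 2) ^ (n + 2) * a * (Parts (n + 3) s).card := by gcongr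

end Vale.Agent.P181.FR
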