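import Vale.Agent.P181.R2.H539.CountGen

set_option autoImplicit false

namespace Vale.Agent.P181.FR

/-- The number of partitions of `s` with at most `n + 3` rows which have a gap smaller than `G` is at
most `K * G / s` times the number of all of them. -/
theorem count_gap (n : ℕ) : ∃ K : ℕ, ∀ s G : ℕ, 1 ≤ G →
    s * ((Parts (n + 3) s).filter (fun lam =>
      (∃ i : Fin (n + 2), (lam i.castSucc : ℕ) < lam i.succ + G) ∨
        (lam (Fin.last _) : ℕ) < G)).card ≤ K * G * (Parts (n + 3) s).card := by
  obtain ⟨K, hK⟩ := count_bad_gen n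
  refine ⟨K, ?_⟩
  intro s G _
  have h := hK s G (fun lam => ¬ ((∃ i : Fin (n + 2), lam i.castSucc < lam i.succ + G) ∨
        lam (Fin.last _) < G)) ?_
  · have he : {lam ∈ (Parts (n + 3) s : Set (Fin (n + 3) → Fin (s + 1))) |
      ¬ (fun lam : Fin (n + 3) → ℕ => ¬ ((∃ i : Fin (n + 2), lam i.castSucc < lam i.succ + G) ∨
        lam (Fin.last _) < G)) (fun i => lam i)} =
      (((Parts (n + 3) s).filter (fun lam =>
      (∃ i : Fin (n + 2), (lam i.castSucc : ℕ) < lam i.succ + G) ∨
        (lam (Fin.last _) : ℕ) < G) : Finset _) : Set (Fin (n + 3) → Fin (s + 1))) := by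
      ext lam
      simp only [Set.mem_ofPred_eq, Finset.coe_filter, Finset.mem_coe, not_not]
    rw [he, Set.ncard_coe_finset] at h
    exact h
  · intro lam _ h1 h2 h3
    rcases h3 with ⟨i, hi⟩ | h3
    · have := h1 i
      omega
    · omega

end Vale.Agent.P181.FR
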