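import Vale.Agent.P181.R2.H539.Count

set_option autoImplicit false

/-!
# Almost all partitions with at most `n + 3` rows have large gaps, general form

`count_bad_gen`: the number of partitions of `s` with at most `n + 3` rows which have a gap smaller
than `W` is at most `K * W / s` times the number of all of them (`K` depends on `n` only).
-/

namespace Vale.Agent.P181.FR

open H539Count in
theorem count_bad_gen (n : ℕ) : ∃ K : ℕ, ∀ (s W : ℕ) (P : (Fin (n + 3) → ℕ) → Prop),
    (∀ lam : Fin (n + 3) → ℕ, ∑ i, lam i = s →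
      (∀ i : Fin (n + 2), lam i.succ + W ≤ lam i.castSucc) →
      W ≤ lam (Fin.last _) → P lam) →
    s * {lam ∈ (Parts (n + 3) s : Set (Fin (n + 3) → Fin (s + 1))) |
      ¬ P (fun i => lam i)}.ncard ≤ K * W * (Parts (n + 3) s).card := by
  classical
  refine ⟨(n + 3) * ((n + 3) ^ 2) ^ (n + 2), ?_⟩
  intro s D P hP
  -- the bad sets
  obtain ⟨B, hB⟩ : ∃ B : Fin (n + 2) → Finset (Fin (n + 3) → Fin (s + 1)),
      ∀ i, B i = (Parts (n + 3) s).filter
        (fun lam => (lam i.castSucc : ℕ) < lam i.succ + D) := ⟨_, fun _ => rfl⟩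
  obtain ⟨B0, hB0⟩ : ∃ B0 : Finset (Fin (n + 3) → Fin (s + 1)),
      B0 = (Parts (n + 3) s).filter (fun lam => (lam (Fin.last _) : ℕ) < D) := ⟨_, rfl⟩
  have hcB : ∀ i, (B i).card ≤ (s + 1) ^ (n + 1) * D := by
    intro i
    have hne : i.castSucc ≠ i.succ := ne_of_lt (Fin.castSucc_lt_succ)
    apply upper n s D i.castSucc i.succ hne (B i)
      (fun lam => (lam i.castSucc : ℕ) - lam i.succ)
    · intro lam hlam
      rw [hB, Finset.mem_filter, Parts, Finset.mem_filter] at hlam
      have h1 := hlam.1.2.1 i.castSucc i.succ (le_of_lt Fin.castSucc_lt_succ)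
      rw [Fin.le_def] at h1
      have h2 := hlam.2
      show (lam i.castSucc : ℕ) - lam i.succ < D
      omega
    · intro lam hlam mu hmu h ht
      rw [hB, Finset.mem_filter, Parts, Finset.mem_filter] at hlam hmu
      have h1 := hlam.1.2.1 i.castSucc i.succ (le_of_lt Fin.castSucc_lt_succ)
      have h2 := hmu.1.2.1 i.castSucc i.succ (le_of_lt Fin.castSucc_lt_succ)
      rw [Fin.le_def] at h1 h2
      have h3 := two_sum n s i.castSucc i.succ hne lam mu
        (hlam.1.2.2.trans hmu.1.2.2.symm) h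
      constructor
      · apply Fin.ext
        omega
      · apply Fin.ext
        omega
  have hcB0 : B0.card ≤ (s + 1) ^ (n + 1) * D := by
    have hne : (Fin.last (n + 2)) ≠ 0 := by simp
    apply upper n s D (Fin.last (n + 2)) 0 hne B0 (fun lam => (lam (Fin.last (n + 2)) : ℕ))
    · intro lam hlam
      rw [hB0, Finset.mem_filter] at hlam
      exact hlam.2
    · intro lam hlam mu hmu h ht
      rw [hB0, Finset.mem_filter, Parts, Finset.mem_filter] at hlam hmu
      have h3 := two_sum n s (Fin.last (n + 2)) 0 hne lam mu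
        (hlam.1.2.2.trans hmu.1.2.2.symm) h
      constructor
      · apply Fin.ext
        omega
      · apply Fin.ext
        omega
  have hsub : {lam ∈ (Parts (n + 3) s : Set (Fin (n + 3) → Fin (s + 1))) |
      ¬ P (fun i => lam i)} ⊆ ((Finset.univ.biUnion B ∪ B0 : Finset _) : Set _) := by
    intro lam hlam
    obtain ⟨hlam1, hlam2⟩ := hlam
    by_contra hcon
    apply hlam2
    rw [Finset.mem_coe, Finset.mem_union, not_or] at hcon
    have hm : lam ∈ Parts (n + 3) s := hlam1
    have hsm : ∑ i, (lam i : ℕ) = s := by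
      rw [Parts, Finset.mem_filter] at hm
      exact hm.2.2
    apply hP (fun i => (lam i : ℕ)) hsm
    · intro i
      by_contra h
      apply hcon.1
      rw [Finset.mem_biUnion]
      refine ⟨i, Finset.mem_univ _, ?_⟩
      rw [hB, Finset.mem_filter]
      refine ⟨hm, ?_⟩
      omega
    · by_contra h
      apply hcon.2
      rw [hB0, Finset.mem_filter]
      refine ⟨hm, ?_⟩
      omega
  have hn1 : {lam ∈ (Parts (n + 3) s : Set (Fin (n + 3) → Fin (s + 1))) |
      ¬ P (fun i => lam i)}.ncard ≤ (n + 3) * ((s + 1) ^ (n + 1) * D) := by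
    refine le_trans (Set.ncard_le_ncard hsub (Finset.finite_toSet _)) ?_
    rw [Set.ncard_coe_finset]
    refine le_trans (Finset.card_union_le _ _) ?_
    have h1 : (Finset.univ.biUnion B).card ≤ (n + 2) * ((s + 1) ^ (n + 1) * D) := by
      refine le_trans Finset.card_biUnion_le ?_
      calc ∑ i, (B i).card ≤ ∑ _i : Fin (n + 2), (s + 1) ^ (n + 1) * D :=
            Finset.sum_le_sum (fun i _ => hcB i)
        _ = (n + 2) * ((s + 1) ^ (n + 1) * D) := by simp
    calc (Finset.univ.biUnion B).card + B0.card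
        ≤ (n + 2) * ((s + 1) ^ (n + 1) * D) + (s + 1) ^ (n + 1) * D := Nat.add_le_add h1 hcB0
      _ = (n + 3) * ((s + 1) ^ (n + 1) * D) := by ring
  have hlow := lower n s
  have hdiv : s + 1 ≤ (n + 3) ^ 2 * (s / (n + 3) ^ 2 + 1) := by
    have := Nat.lt_mul_div_succ s (show 0 < (n + 3) ^ 2 by positivity)
    exact this
  calc s * {lam ∈ (Parts (n + 3) s : Set (Fin (n + 3) → Fin (s + 1))) |
      ¬ P (fun i => lam i)}.ncard
      ≤ s * ((n + 3) * ((s + 1) ^ (n + 1) * D)) := Nat.mul_le_mul_left _ hn1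
    _ = (n + 3) * D * (s * (s + 1) ^ (n + 1)) := by ring
    _ ≤ (n + 3) * D * ((s + 1) * (s + 1) ^ (n + 1)) := by gcongr; omega
    _ = (n + 3) * D * (s + 1) ^ (n + 2) := by ring
    _ ≤ (n + 3) * D * ((n + 3) ^ 2 * (s / (n + 3) ^ 2 + 1)) ^ (n + 2) := by gcongr
    _ = (n + 3) * ((n + 3) ^ 2) ^ (n + 2) * D * (s / (n + 3) ^ 2 + 1) ^ (n + 2) := by
        rw [mul_pow]; ring
    _ ≤ (n + 3) * ((n + 3) ^ 2) ^ (n + 2) * D * (Parts (n + 3) s).card := by gcongr

end Vale.Agent.P181.FR
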