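import Vale.Agent.P181.R2.H539.K13b

set_option autoImplicit false

namespace Vale.Agent.P181.KT

open Finset Vale.Agent.P181 Vale.Agent.P181.H280 Vale.Agent.P181.FR

/-- K13 from K13a (K13b is `k13b`). -/
theorem k13_of (h13a : ∀ {ι : Type} [Fintype ι] [DecidableEq ι] (w : ι → ℝ) (a : ℕ),
    (∀ i, 0 ≤ w i) → (∀ i, w i ≤ 1) →
    (a.factorial : ℝ) * ∑ s : Sym ι a, ((s : Multiset ι).map w).prod ≤ (∑ i, w i + a) ^ a) :
    ∀ {a b m : ℕ} (lam : Fin m → ℕ) (η : Fin m → ℝ), (∀ i, η i ≤ 0) →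
    (a.factorial : ℝ) * plethMult a b m lam * Real.exp (∑ i, η i * (lam i : ℝ)) ≤
      (ZZ m b η + a) ^ a := by
  classical
  intro a b m lam η hη
  obtain ⟨w, hw⟩ : ∃ w : {u // u ∈ Mn m b} → ℝ, ∀ u, w u = Real.exp (∑ i, η i * (u.1 i : ℝ)) :=
    ⟨_, fun _ => rfl⟩
  have hw0 : ∀ u, 0 ≤ w u := fun u => by rw [hw]; exact (Real.exp_pos _).le
  have hw1 : ∀ u, w u ≤ 1 := by
    intro u
    rw [hw, Real.exp_le_one_iff]
    apply Finset.sum_nonpos
    intro i _
    exact mul_nonpos_of_nonpos_of_nonneg (hη i) (Nat.cast_nonneg _)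
  have h1 := h13a w a hw0 hw1
  have h2 : ∑ u, w u = ZZ m b η := by
    have e : ZZ m b η = ∑ u : {u // u ∈ Mn m b}, Real.exp (∑ i, η i * (u.1 i : ℝ)) :=
      (Finset.sum_coe_sort (Mn m b) (fun u => Real.exp (∑ i, η i * (u i : ℝ)))).symm
    rw [e]
    exact Finset.sum_congr rfl (fun u _ => hw u)
  rw [h2] at h1
  refine le_trans ?_ h1
  obtain ⟨F, hF⟩ : ∃ F : Finset (Sym {u // u ∈ Mn m b} a), F = Finset.univ.filter
    (fun s : Sym {u // u ∈ Mn m b} a =>
    ((s : Multiset {u // u ∈ Mn m b}).map (fun u => u.1)).sum = lam) := ⟨_, rfl⟩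
  have h3 : plethMult a b m lam ≤ F.card := by rw [hF]; exact k13b a b m lam
  have h4 : ∀ s ∈ F, ((s : Multiset {u // u ∈ Mn m b}).map w).prod =
      Real.exp (∑ i, η i * (lam i : ℝ)) := by
    intro s hs
    rw [hF, Finset.mem_filter] at hs
    rw [← hs.2]
    have key : ∀ t : Multiset {u // u ∈ Mn m b}, (t.map w).prod =
        Real.exp (∑ i, η i * (((t.map (fun u => u.1)).sum i : ℕ) : ℝ)) := by
      intro t
      induction t using Multiset.induction_on with
      | empty => simp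
      | cons u t ih =>
        rw [Multiset.map_cons, Multiset.prod_cons, Multiset.map_cons, Multiset.sum_cons, ih, hw,
          ← Real.exp_add, ← Finset.sum_add_distrib]
        congr 1
        apply Finset.sum_congr rfl
        intro i _
        rw [Pi.add_apply]
        push_cast
        ring
    exact key _
  have h5 : (F.card : ℝ) * Real.exp (∑ i, η i * (lam i : ℝ)) ≤
      ∑ s : Sym {u // u ∈ Mn m b} a, ((s : Multiset {u // u ∈ Mn m b}).map w).prod := by
    calc (F.card : ℝ) * Real.exp (∑ i, η i * (lam i : ℝ))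
        = ∑ s ∈ F, ((s : Multiset {u // u ∈ Mn m b}).map w).prod := by
          rw [Finset.sum_congr rfl h4, Finset.sum_const, nsmul_eq_mul]
      _ ≤ ∑ s : Sym {u // u ∈ Mn m b} a, ((s : Multiset {u // u ∈ Mn m b}).map w).prod := by
          apply Finset.sum_le_sum_of_subset_of_nonneg (Finset.subset_univ _)
          intro s _ _
          apply Multiset.prod_nonneg
          intro x hx
          obtain ⟨u, _, rfl⟩ := Multiset.mem_map.1 hx
          exact hw0 u
  calc (a.factorial : ℝ) * plethMult a b m lam * Real.exp (∑ i, η i * (lam i : ℝ))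
      ≤ (a.factorial : ℝ) * F.card * Real.exp (∑ i, η i * (lam i : ℝ)) := by
        gcongr
    _ = (a.factorial : ℝ) * (F.card * Real.exp (∑ i, η i * (lam i : ℝ))) := by ring
    _ ≤ _ := by gcongr

end Vale.Agent.P181.KT
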