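import Vale.Agent.P181.R2.H207.KDefs
import Vale.Agent.P181.R2.H539.Dim

set_option autoImplicit false

open scoped TensorProduct

namespace Vale.Agent.P181.KT

open Finset Vale.Agent.P181 Vale.Agent.P181.H280 Vale.Agent.P181.H54 Vale.Agent.P181.FR

namespace H539B

lemma exists_perm {ι T : Type} [Fintype ι] [DecidableEq T] (f g : ι → T)
    (h : ∀ c, (univ.filter (fun i => f i = c)).card = (univ.filter (fun i => g i = c)).card) :
    ∃ σ : Equiv.Perm ι, ∀ i, g (σ i) = f i := by
  classical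
  let e : ∀ c, {a // f a = c} ≃ {b // g b = c} := fun c => Fintype.equivOfCardEq (by
    rw [Fintype.card_subtype, Fintype.card_subtype]; exact h c)
  exact ⟨Equiv.ofFiberEquiv e, fun i => Equiv.ofFiberEquiv_map e i⟩

lemma count_map_univ {ι T : Type} [Fintype ι] [DecidableEq T] (f : ι → T) (c : T) :
    (univ.val.map f).count c = (univ.filter (fun i => f i = c)).card := by
  rw [Multiset.count_map]
  rw [Finset.card_def, Finset.filter_val]
  congr 1
  apply Multiset.filter_congr
  intro x _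
  exact eq_comm

universe u

lemma span_sym {M : Type u} [AddCommGroup M] [Module ℂ M] {κ : Type} [Fintype κ] (ε : κ → M)
    (h : Submodule.span ℂ (Set.range ε) = ⊤) (a : ℕ) :
    Submodule.span ℂ (Set.range (fun φ : Fin a → κ =>
      SymmetricPower.tprod ℂ (fun j => ε (φ j)))) = ⊤ := by
  classical
  rw [eq_top_iff, ← SymmetricPower.span_tprod_eq_top, Submodule.span_le]
  rintro _ ⟨v, rfl⟩
  have h0 : ∀ i, ∃ c : κ → ℂ, ∑ k, c k • ε k = v i := by
    intro i
    have h1 : v i ∈ Submodule.span ℂ (Set.range ε) := by rw [h]; trivial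
    exact (Submodule.mem_span_range_iff_exists_fun ℂ).1 h1
  choose c hc using h0
  have h1 : v = fun i => ∑ k, (c i k) • ε k := by
    funext i
    exact (hc i).symm
  have h2 : SymmetricPower.tprod ℂ v = ∑ f : Fin a → κ, (∏ i, c i (f i)) •
      SymmetricPower.tprod ℂ (fun j => ε (f j)) := by
    conv_lhs => rw [h1]
    rw [MultilinearMap.map_sum]
    apply Finset.sum_congr rfl
    intro f _
    rw [MultilinearMap.map_smul_univ]
  change SymmetricPower.tprod ℂ v ∈ Submodule.span ℂ _
  rw [h2]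
  exact Submodule.sum_mem _ (fun f _ => Submodule.smul_mem _ _ (Submodule.subset_span ⟨f, rfl⟩))

/-- content of a word -/
def cont {b m : ℕ} (f : Fin b → Fin m) : Fin m → ℕ := fun i => (univ.filter (fun l => f l = i)).card

lemma cont_mem {b m : ℕ} (f : Fin b → Fin m) : cont f ∈ Mn m b := by
  rw [Mn, Finset.mem_piAntidiag]
  refine ⟨?_, fun i _ => Finset.mem_univ i⟩
  have h := Finset.card_eq_sum_card_fiberwise (s := (univ : Finset (Fin b))) (t := univ) (f := f)
    (fun x _ => Finset.mem_coe.2 (Finset.mem_univ _))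
  rw [Finset.card_univ, Fintype.card_fin] at h
  exact h.symm

lemma exists_W {b m : ℕ} (u : {u // u ∈ Mn m b}) : ∃ f : Fin b → Fin m, cont f = u.1 := by
  have hu : u.1 ∈ Finset.piAntidiag Finset.univ b := u.2
  rw [Finset.mem_piAntidiag] at hu
  obtain ⟨f, hf⟩ := H539Dim.exists_word u.1 hu.1
  refine ⟨f, ?_⟩
  funext i
  rw [← hf i, Finsupp.finsetSum_apply, cont, Finset.card_filter]
  apply Finset.sum_congr rfl
  intro l _
  rw [Finsupp.single_apply]

/-- a word with content `u` -/
noncomputable def W {b m : ℕ} (u : {u // u ∈ Mn m b}) : Fin b → Fin m := (exists_W u).choose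

lemma cont_W {b m : ℕ} (u : {u // u ∈ Mn m b}) : cont (W u) = u.1 := (exists_W u).choose_spec

/-- the monomial `u` -/
noncomputable def mon {b m : ℕ} (u : {u // u ∈ Mn m b}) : Sym[ℂ]^b (Fin m → ℂ) :=
  SymmetricPower.tprod ℂ (fun l => (Pi.single (W u l) 1 : Fin m → ℂ))

lemma tprod_eq_mon {b m : ℕ} (f : Fin b → Fin m) :
    SymmetricPower.tprod ℂ (fun l => (Pi.single (f l) 1 : Fin m → ℂ)) =
      mon ⟨cont f, cont_mem f⟩ := by
  obtain ⟨σ, hσ⟩ := exists_perm f (W ⟨cont f, cont_mem f⟩) (by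
    intro c
    exact (congrFun (cont_W ⟨cont f, cont_mem f⟩) c).symm)
  have h1 : (fun l => (Pi.single (f l) 1 : Fin m → ℂ)) =
      fun l => (Pi.single (W ⟨cont f, cont_mem f⟩ (σ l)) 1 : Fin m → ℂ) := by
    funext l
    rw [hσ l]
  rw [h1]
  exact SymmetricPower.tprod_equiv σ
    (fun l => (Pi.single (W ⟨cont f, cont_mem f⟩ l) 1 : Fin m → ℂ))

lemma exists_rep {T : Type} {a : ℕ} (s : Sym T a) :
    ∃ g : Fin a → T, univ.val.map g = (s : Multiset T) := by
  obtain ⟨l, hl⟩ := Quot.exists_rep (s : Multiset T)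
  have hlen : l.length = a := by
    have h1 : Multiset.card (s : Multiset T) = a := s.2
    rw [← hl] at h1
    exact h1
  subst hlen
  refine ⟨l.get, ?_⟩
  rw [Fin.univ_val_map, List.ofFn_get]
  exact hl

/-- an enumeration of a multiset -/
noncomputable def rp {T : Type} {a : ℕ} (s : Sym T a) : Fin a → T := (exists_rep s).choose

lemma rp_spec {T : Type} {a : ℕ} (s : Sym T a) : univ.val.map (rp s) = (s : Multiset T) :=
  (exists_rep s).choose_spec

/-- the product of the monomials in `s` -/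
noncomputable def HH (a b m : ℕ) (s : Sym {u // u ∈ Mn m b} a) : Pleth a b m :=
  SymmetricPower.tprod ℂ (fun j => mon (rp s j))

lemma tprod_eq_HH {a b m : ℕ} (g : Fin a → {u // u ∈ Mn m b}) :
    (SymmetricPower.tprod ℂ (fun j => mon (g j)) : Pleth a b m) =
      HH a b m ⟨univ.val.map g, by simp⟩ := by
  classical
  obtain ⟨σ, hσ⟩ := exists_perm g (rp (⟨univ.val.map g, by simp⟩ : Sym {u // u ∈ Mn m b} a)) (by
    intro c
    have e1 := count_map_univ g c
    have e2 := count_map_univ (rp (⟨univ.val.map g, by simp⟩ : Sym {u // u ∈ Mn m b} a)) c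
    have e3 := congrArg (Multiset.count c)
      (rp_spec (⟨univ.val.map g, by simp⟩ : Sym {u // u ∈ Mn m b} a))
    exact (e1.symm.trans e3.symm).trans e2)
  have h1 : (fun j => mon (g j)) = fun j =>
      mon (rp (⟨univ.val.map g, by simp⟩ : Sym {u // u ∈ Mn m b} a) (σ j)) := by
    funext j
    rw [hσ j]
  rw [h1]
  exact SymmetricPower.tprod_equiv σ
    (fun j => mon (rp (⟨univ.val.map g, by simp⟩ : Sym {u // u ∈ Mn m b} a) j))

lemma span_e (m : ℕ) : Submodule.span ℂ (Set.range
    (fun i : Fin m => (Pi.single i 1 : Fin m → ℂ))) = ⊤ := by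
  have h := (Pi.basisFun ℂ (Fin m)).span_eq
  have h2 : (⇑(Pi.basisFun ℂ (Fin m)) : Fin m → Fin m → ℂ) =
      fun i : Fin m => (Pi.single i 1 : Fin m → ℂ) := by
    funext i
    simp
  rw [h2] at h
  exact h

lemma span_mon (b m : ℕ) : Submodule.span ℂ (Set.range (mon (b := b) (m := m))) = ⊤ := by
  rw [eq_top_iff, ← span_sym _ (span_e m) b]
  apply Submodule.span_mono
  rintro _ ⟨f, rfl⟩
  exact ⟨_, (tprod_eq_mon f).symm⟩

lemma span_HH (a b m : ℕ) : Submodule.span ℂ (Set.range (HH a b m)) = ⊤ := by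
  rw [eq_top_iff]
  have h := span_sym (mon (b := b) (m := m)) (span_mon b m) a
  have h2 : (⊤ : Submodule ℂ (Pleth a b m)) = Submodule.span ℂ (Set.range
      (fun φ : Fin a → {u // u ∈ Mn m b} =>
        (SymmetricPower.tprod ℂ (fun j => mon (φ j)) : Pleth a b m))) := h.symm
  rw [h2]
  apply Submodule.span_mono
  rintro _ ⟨g, rfl⟩
  exact ⟨_, (tprod_eq_HH g).symm⟩

/-- the exponent -/
noncomputable def ψ {b m : ℕ} (u : {u // u ∈ Mn m b}) : Fin m →₀ ℕ :=
  ∑ l, Finsupp.single (W u l) 1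

lemma ψ_apply {b m : ℕ} (u : {u // u ∈ Mn m b}) (i : Fin m) : ψ u i = u.1 i := by
  rw [← cont_W u, ψ, Finsupp.finsetSum_apply, cont, Finset.card_filter]
  apply Finset.sum_congr rfl
  intro l _
  rw [Finsupp.single_apply]

lemma ψ_inj {b m : ℕ} {u v : {u // u ∈ Mn m b}} (h : ψ u = ψ v) : u = v := by
  apply Subtype.ext
  funext i
  rw [← ψ_apply, ← ψ_apply, h]

/-- the exponent of `HH s` -/
noncomputable def DD {a b m : ℕ} (s : Sym {u // u ∈ Mn m b} a) : (Fin m →₀ ℕ) →₀ ℕ :=
  ∑ j, Finsupp.single (ψ (rp s j)) 1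

lemma DD_apply {a b m : ℕ} (s : Sym {u // u ∈ Mn m b} a) (u : {u // u ∈ Mn m b}) :
    DD s (ψ u) = (univ.filter (fun j => rp s j = u)).card := by
  rw [DD, Finsupp.finsetSum_apply, Finset.card_filter]
  apply Finset.sum_congr rfl
  intro j _
  rw [Finsupp.single_apply]
  by_cases h : rp s j = u
  · rw [if_pos (by rw [h]), if_pos h]
  · rw [if_neg (fun h2 => h (ψ_inj h2)), if_neg h]

lemma DD_inj {a b m : ℕ} {s s' : Sym {u // u ∈ Mn m b} a} (h : DD s = DD s') : s = s' := by
  classical
  apply Sym.coe_injective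
  rw [← rp_spec s, ← rp_spec s']
  apply Multiset.ext.2
  intro u
  rw [count_map_univ, count_map_univ, ← DD_apply, ← DD_apply, h]

lemma sepX_HH {a b m : ℕ} (s : Sym {u // u ∈ Mn m b} a) :
    sepX a b m (HH a b m s) = MvPolynomial.monomial (DD s) 1 :=
  sepX_tprod (fun j => W (rp s j))

lemma coeff_sum {a b m : ℕ} (r : Sym {u // u ∈ Mn m b} a → ℂ) (s0 : Sym {u // u ∈ Mn m b} a) :
    MvPolynomial.coeff (DD s0) (sepX a b m (∑ s, r s • HH a b m s)) = r s0 := by
  classical
  rw [map_sum, MvPolynomial.coeff_sum, Finset.sum_eq_single s0]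
  · rw [map_smul, MvPolynomial.coeff_smul, sepX_HH, MvPolynomial.coeff_monomial, if_pos rfl]
    simp
  · intro s _ hs
    rw [map_smul, MvPolynomial.coeff_smul, sepX_HH, MvPolynomial.coeff_monomial,
      if_neg (fun h => hs (DD_inj h))]
    simp
  · intro h
    exact absurd (Finset.mem_univ _) h

/-- the torus element -/
noncomputable def tor {m : ℕ} (i : Fin m) : Matrix (Fin m) (Fin m) ℂ :=
  Matrix.diagonal (fun k => if k = i then 2 else 1)

lemma tor_borel {m : ℕ} (i : Fin m) : IsBorel (tor i) := by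
  refine ⟨?_, ?_⟩
  · intro k l h
    rw [tor, Matrix.diagonal_apply_ne _ (ne_of_gt h)]
  · intro k
    rw [tor, Matrix.diagonal_apply_eq]
    split_ifs <;> norm_num

lemma symMap_mon {b m : ℕ} (i : Fin m) (u : {u // u ∈ Mn m b}) :
    symMap b (Matrix.toLin' (tor i)) (mon u) = (2 : ℂ) ^ (u.1 i) • mon u := by
  rw [mon, symMap_tprod]
  have h1 : (fun l => Matrix.toLin' (tor i) (Pi.single (W u l) 1 : Fin m → ℂ)) =
      fun l => (if W u l = i then (2 : ℂ) else 1) • (Pi.single (W u l) 1 : Fin m → ℂ) := by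
    funext l
    rw [Matrix.toLin'_apply, tor, Matrix.mulVec_single_one]
    funext k
    rw [Matrix.col_apply, Pi.smul_apply, Matrix.diagonal_apply, smul_eq_mul, Pi.single_apply]
    by_cases h : k = W u l
    · rw [if_pos h, if_pos h, h, mul_one]
    · rw [if_neg h, if_neg h, mul_zero]
  rw [h1, MultilinearMap.map_smul_univ]
  congr 1
  rw [Finset.prod_ite, Finset.prod_const, Finset.prod_const_one, mul_one]
  congr 1
  exact congrFun (cont_W u) i

lemma act_HH {a b m : ℕ} (i : Fin m) (s : Sym {u // u ∈ Mn m b} a) :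
    plethAct a b m (tor i) (HH a b m s) =
      (2 : ℂ) ^ (((s : Multiset {u // u ∈ Mn m b}).map (fun u => u.1)).sum i) • HH a b m s := by
  have h0 : plethAct a b m (tor i) (HH a b m s) =
      SymmetricPower.tprod ℂ (fun j => symMap b (Matrix.toLin' (tor i)) (mon (rp s j))) :=
    symMap_tprod _ _ _
  rw [h0]
  have h1 : (fun j => symMap b (Matrix.toLin' (tor i)) (mon (rp s j))) =
      fun j => (2 : ℂ) ^ ((rp s j).1 i) • mon (rp s j) := by
    funext j
    exact symMap_mon i _
  rw [h1, MultilinearMap.map_smul_univ, Finset.prod_pow_eq_pow_sum]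
  have h2 : ∑ j, (rp s j).1 i = ((s : Multiset {u // u ∈ Mn m b}).map (fun u => u.1)).sum i := by
    rw [← rp_spec s, Multiset.map_map]
    have h3 : (Multiset.map ((fun u : {u // u ∈ Mn m b} => u.1) ∘ rp s) univ.val).sum =
        ∑ j, (rp s j).1 := rfl
    rw [h3, Finset.sum_apply]
  rw [h2]
  rfl

end H539B

open H539B in
theorem k13b : ∀ (a b m : ℕ) (lam : Fin m → ℕ), plethMult a b m lam ≤
  (Finset.univ.filter (fun s : Sym {u // u ∈ Mn m b} a =>
    ((s : Multiset {u // u ∈ Mn m b}).map (fun u => u.1)).sum = lam)).card := by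
  classical
  intro a b m lam
  obtain ⟨F, hF⟩ : ∃ F : Finset (Sym {u // u ∈ Mn m b} a), F = Finset.univ.filter
    (fun s : Sym {u // u ∈ Mn m b} a =>
    ((s : Multiset {u // u ∈ Mn m b}).map (fun u => u.1)).sum = lam) := ⟨_, rfl⟩
  have hmem : ∀ s, s ∈ F ↔ ((s : Multiset {u // u ∈ Mn m b}).map (fun u => u.1)).sum = lam := by
    intro s
    rw [hF]
    simp
  have hle : ∀ x ∈ hwSpace lam (plethAct a b m),
      x ∈ Submodule.span ℂ (Set.range (fun s : F => HH a b m s.1)) := by
    intro x hx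
    have h1 : x ∈ Submodule.span ℂ (Set.range (HH a b m)) := by rw [span_HH]; trivial
    obtain ⟨c, hc⟩ := (Submodule.mem_span_range_iff_exists_fun ℂ).1 h1
    have h2 : ∀ s, s ∉ F → c s = 0 := by
      intro s hs
      rw [hmem] at hs
      obtain ⟨i, hi⟩ := Function.ne_iff.1 hs
      have h3 := hx (tor i) (tor_borel i)
      have h4 : ∏ k, (tor i) k k ^ lam k = (2 : ℂ) ^ lam i := by
        rw [Finset.prod_eq_single i]
        · rw [tor, Matrix.diagonal_apply_eq, if_pos rfl]
        · intro k _ hk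
          rw [tor, Matrix.diagonal_apply_eq, if_neg hk, one_pow]
        · intro h
          exact absurd (Finset.mem_univ _) h
      rw [h4, ← hc, map_sum, Finset.smul_sum] at h3
      have h5 : ∑ s, plethAct a b m (tor i) (c s • HH a b m s) =
          ∑ s, (c s * (2 : ℂ) ^ (((s : Multiset {u // u ∈ Mn m b}).map
            (fun u => u.1)).sum i)) • HH a b m s := by
        apply Finset.sum_congr rfl
        intro s _
        rw [map_smul, act_HH, smul_smul]
      have h6 : ∑ s, (2 : ℂ) ^ lam i • (c s • HH a b m s) =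
          ∑ s, ((2 : ℂ) ^ lam i * c s) • HH a b m s := by
        apply Finset.sum_congr rfl
        intro s _
        rw [smul_smul]
      rw [h5, h6] at h3
      have h7 := congrArg (fun y => MvPolynomial.coeff (DD s) (sepX a b m y)) h3
      simp only [coeff_sum] at h7
      by_contra hcs
      have h8 : (2 : ℂ) ^ (((s : Multiset {u // u ∈ Mn m b}).map (fun u => u.1)).sum i) =
          (2 : ℂ) ^ lam i := by
        rw [mul_comm] at h7
        exact mul_right_cancel₀ hcs h7
      have h9 : ((2 : ℕ) : ℂ) ^ (((s : Multiset {u // u ∈ Mn m b}).map (fun u => u.1)).sum i) =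
          ((2 : ℕ) : ℂ) ^ lam i := by exact_mod_cast h8
      have h10 : 2 ^ (((s : Multiset {u // u ∈ Mn m b}).map (fun u => u.1)).sum i) =
          2 ^ lam i := by exact_mod_cast h9
      exact hi (Nat.pow_right_injective (le_refl 2) h10)
    rw [← hc]
    apply Submodule.sum_mem
    intro s _
    by_cases hs : s ∈ F
    · exact Submodule.smul_mem _ _ (Submodule.subset_span ⟨⟨s, hs⟩, rfl⟩)
    · rw [h2 s hs, zero_smul]
      exact Submodule.zero_mem _
  have h3 : plethMult a b m lam ≤ Module.finrank ℂ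
      (Submodule.span ℂ (Set.range (fun s : F => HH a b m s.1))) :=
    finrank_le_of_inj (LinearMap.id : Pleth a b m →ₗ[ℂ] Pleth a b m) _ _ hle (fun _ _ h => h)
  refine h3.trans ?_
  have h4 := finrank_range_le_card (R := ℂ)
    (fun s : F => (HH a b m s.1 : Sym[ℂ]^a (Sym[ℂ]^b (Fin m → ℂ))))
  rw [Fintype.card_coe] at h4
  rw [← hF]
  exact h4

end Vale.Agent.P181.KT
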