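import Vale.Agent.P181.R2.H539.K13b

set_option autoImplicit false

open scoped TensorProduct

namespace Vale.Agent.P181.KT

open Finset Vale.Agent.P181 Vale.Agent.P181.H280 Vale.Agent.P181.H54 Vale.Agent.P181.FR

namespace H539B

/-- tuples of monomials with sum `ν` against multisets -/
lemma NN_le {b c m : ℕ} (ν : Fin m → ℕ) (S : Finset (Sym {u // u ∈ Mn m c} b))
    (hS : ∀ s : Sym {u // u ∈ Mn m c} b,
      ((s : Multiset {u // u ∈ Mn m c}).map (fun u => u.1)).sum = ν → s ∈ S) :
    NN m c b ν ≤ b.factorial * S.card := by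
  classical
  obtain ⟨G, hG⟩ : ∃ G : Finset (Fin b → {u // u ∈ Mn m c}),
      G = Finset.univ.filter (fun g => ∑ j, (g j).1 = ν) := ⟨_, rfl⟩
  have h1 : NN m c b ν ≤ G.card := by
    rw [NN]
    apply Finset.card_le_card_of_surjOn
      (fun (g : Fin b → {u // u ∈ Mn m c}) (j : Fin b) => (g j).1)
    intro f hf
    rw [Finset.mem_coe, Finset.mem_filter, Fintype.mem_piFinset] at hf
    refine ⟨fun j => ⟨f j, hf.1 j⟩, ?_, rfl⟩
    rw [Finset.mem_coe, hG, Finset.mem_filter]
    exact ⟨Finset.mem_univ _, hf.2⟩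
  have h2 : G.card ≤ b.factorial * S.card := by
    apply Finset.card_le_mul_card_image_of_maps_to
      (f := fun g : Fin b → {u // u ∈ Mn m c} =>
        (⟨univ.val.map g, by simp⟩ : Sym {u // u ∈ Mn m c} b))
    · intro g hg
      rw [hG, Finset.mem_filter] at hg
      apply hS
      have h3 : ((univ.val.map g).map (fun u : {u // u ∈ Mn m c} => u.1)).sum = ∑ j, (g j).1 := by
        rw [Multiset.map_map]
        rfl
      exact h3.trans hg.2
    · intro s _
      have h4 : (univ : Finset (Equiv.Perm (Fin b))).card = b.factorial := by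
        rw [Finset.card_univ, Fintype.card_perm, Fintype.card_fin]
      rw [← h4]
      apply Finset.card_le_card_of_surjOn
        (fun (σ : Equiv.Perm (Fin b)) (i : Fin b) => rp s (σ i))
      intro g hg
      rw [Finset.mem_coe, Finset.mem_filter] at hg
      have h5 : univ.val.map g = univ.val.map (rp s) := by
        have h6 := congrArg (fun q : Sym {u // u ∈ Mn m c} b => (q : Multiset {u // u ∈ Mn m c})) hg.2
        exact h6.trans (rp_spec s).symm
      obtain ⟨σ, hσ⟩ := exists_perm g (rp s) (by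
        intro d
        rw [← count_map_univ, ← count_map_univ, h5])
      exact ⟨σ, Finset.mem_coe.2 (Finset.mem_univ _), funext hσ⟩
  exact h1.trans h2

end H539B

open H539B in
theorem k14_dim {b c m : ℕ} (ν : Fin m → ℕ) (E : Submodule ℂ (Pleth b c m))
    (hE : ∀ f : Fin b → Fin c → Fin m,
      (∀ i, (Finset.univ.filter (fun p : Fin b × Fin c => f p.1 p.2 = i)).card = ν i) →
      SymmetricPower.tprod ℂ (fun j => SymmetricPower.tprod ℂ
        (fun t => (Pi.single (f j t) 1 : Fin m → ℂ))) ∈ E) :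
    NN m c b ν ≤ b.factorial * Module.finrank ℂ E := by
  classical
  obtain ⟨S, hS⟩ : ∃ S : Finset (Sym {u // u ∈ Mn m c} b), S = Finset.univ.filter
    (fun s : Sym {u // u ∈ Mn m c} b =>
    ((s : Multiset {u // u ∈ Mn m c}).map (fun u => u.1)).sum = ν) := ⟨_, rfl⟩
  have hmem : ∀ s, s ∈ S ↔ ((s : Multiset {u // u ∈ Mn m c}).map (fun u => u.1)).sum = ν := by
    intro s
    rw [hS]
    simp
  have h1 := NN_le ν S (fun s hs => (hmem s).2 hs)
  have hx : ∀ s : S, HH b c m s.1 ∈ E := by
    intro s
    apply hE (fun j => W (rp s.1 j))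
    intro i
    have h2 := (hmem s.1).1 s.2
    have h3 : ∑ j, (rp s.1 j).1 i = ν i := by
      rw [← h2, ← rp_spec s.1, Multiset.map_map]
      have h3 : (Multiset.map ((fun u : {u // u ∈ Mn m c} => u.1) ∘ rp s.1) univ.val).sum =
          ∑ j, (rp s.1 j).1 := rfl
      rw [h3, Finset.sum_apply]
    rw [← h3, Finset.card_filter, Fintype.sum_prod_type]
    apply Finset.sum_congr rfl
    intro j _
    rw [← Finset.card_filter]
    exact congrFun (cont_W (rp s.1 j)) i
  have hli : LinearIndependent ℂ (fun s : S => (⟨HH b c m s.1, hx s⟩ : E)) := by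
    apply LinearIndependent.of_comp (sepX b c m ∘ₗ Submodule.subtype _)
    have h4 : (⇑(sepX b c m ∘ₗ Submodule.subtype _) ∘ fun s : S =>
        (⟨HH b c m s.1, hx s⟩ : E)) =
        (MvPolynomial.basisMonomials (Fin m →₀ ℕ) ℂ) ∘ (fun s : S => DD s.1) := by
      funext s
      rw [MvPolynomial.coe_basisMonomials]
      exact sepX_HH s.1
    rw [h4]
    exact (MvPolynomial.basisMonomials (Fin m →₀ ℕ) ℂ).linearIndependent.comp _
      (fun s s' h => Subtype.ext (DD_inj h))
  have := finite_sub E
  have h5 := hli.fintype_card_le_finrank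
  rw [Fintype.card_coe] at h5
  exact h1.trans (Nat.mul_le_mul_left _ h5)

end Vale.Agent.P181.KT
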